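import Vale.Agent.Lib.P064.PP.Bern

/-!
# P064 / PP: the probability that a random subset contains no member of a family
-/

namespace Vale.Agent.Lib.P064.PP

variable {α : Type*} [Fintype α] [DecidableEq α]

/-- the probability that the `p`-random subset contains no member of `ℋ` -/
noncomputable def failProb (p : ℝ) (ℋ : Finset (Finset α)) : ℝ :=
  ∑ W : Finset α, if (∃ S ∈ ℋ, S ⊆ W) then 0 else bern p W

theorem failProb_nonneg {p : ℝ} (hp0 : 0 ≤ p) (hp1 : p ≤ 1) (ℋ : Finset (Finset α)) :
    0 ≤ failProb p ℋ := by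
  unfold failProb
  refine Finset.sum_nonneg ?_
  intro W _
  split_ifs
  · exact le_refl _
  · exact bern_nonneg hp0 hp1 W

theorem failProb_le_one {p : ℝ} (hp0 : 0 ≤ p) (hp1 : p ≤ 1) (ℋ : Finset (Finset α)) :
    failProb p ℋ ≤ 1 := by
  unfold failProb
  rw [← sum_bern (α := α) p]
  refine Finset.sum_le_sum ?_
  intro W _
  split_ifs
  · exact bern_nonneg hp0 hp1 W
  · exact le_refl _

theorem failProb_eq_zero_of_empty_mem (p : ℝ) (ℋ : Finset (Finset α)) (h : ∅ ∈ ℋ) :
    failProb p ℋ = 0 := by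
  unfold failProb
  refine Finset.sum_eq_zero ?_
  intro W _
  rw [if_pos ⟨∅, h, Finset.empty_subset W⟩]

/-- the success probability is `1 - failProb` -/
theorem sum_success (p : ℝ) (ℋ : Finset (Finset α)) :
    ∑ W : Finset α, (if (∃ S ∈ ℋ, S ⊆ W) then bern p W else 0) = 1 - failProb p ℋ := by
  unfold failProb
  rw [eq_sub_iff_add_eq, ← Finset.sum_add_distrib, ← sum_bern (α := α) p]
  refine Finset.sum_congr rfl ?_
  intro W _
  split_ifs <;> simp

/-- at density one the random subset is everything -/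
theorem failProb_one (ℋ : Finset (Finset α)) (h : ℋ.Nonempty) : failProb 1 ℋ = 0 := by
  unfold failProb
  refine Finset.sum_eq_zero ?_
  intro W _
  split_ifs with hW
  · rfl
  · obtain ⟨S, hS⟩ := h
    have hne : W ≠ Finset.univ := by
      intro hu
      exact hW ⟨S, hS, hu ▸ Finset.subset_univ S⟩
    have hlt : W.card < Fintype.card α := by
      rw [← Finset.card_univ]
      exact Finset.card_lt_card (Finset.ssubset_univ_iff.mpr hne)
    unfold bern
    have hpos : Fintype.card α - W.card ≠ 0 := by omega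
    simp [hpos]

/-- two rounds: `failProb (a+b-ab) ℋ = ∑_{W₁} bern a W₁ ∑_{W₂} bern b W₂ 1[W₁ ∪ W₂ contains no member]`
(this is `sum_bern_union` for the indicator function) -/
theorem failProb_union (a b : ℝ) (ℋ : Finset (Finset α)) :
    failProb (a + b - a * b) ℋ =
      ∑ W₁ : Finset α, bern a W₁ *
        ∑ W₂ : Finset α, if (∃ S ∈ ℋ, S ⊆ W₁ ∪ W₂) then 0 else bern b W₂ := by
  have h := sum_bern_union a b (fun W : Finset α => if (∃ S ∈ ℋ, S ⊆ W) then (0 : ℝ) else 1)
  unfold failProb
  have h1 : ∑ W : Finset α, (if (∃ S ∈ ℋ, S ⊆ W) then 0 else bern (a + b - a * b) W) =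
      ∑ W : Finset α, bern (a + b - a * b) W *
        (fun W : Finset α => if (∃ S ∈ ℋ, S ⊆ W) then (0 : ℝ) else 1) W := by
    refine Finset.sum_congr rfl ?_
    intro W _
    show _ = bern (a + b - a * b) W * (if (∃ S ∈ ℋ, S ⊆ W) then (0 : ℝ) else 1)
    split_ifs <;> simp
  rw [h1, ← h]
  refine Finset.sum_congr rfl ?_
  intro W₁ _
  rw [Finset.mul_sum]
  refine Finset.sum_congr rfl ?_
  intro W₂ _
  show bern a W₁ * bern b W₂ * (if (∃ S ∈ ℋ, S ⊆ W₁ ∪ W₂) then (0 : ℝ) else 1) = _
  split_ifs <;> simp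

/-- monotonicity in the density: write `p' = p + b - p b` with `b = (p'-p)/(1-p)` and use
`failProb_union`: if `W₁ ∪ W₂` contains no member then neither does `W₁`. -/
theorem failProb_anti {p p' : ℝ} (hp0 : 0 ≤ p) (hpp' : p ≤ p') (hp'1 : p' ≤ 1)
    (ℋ : Finset (Finset α)) : failProb p' ℋ ≤ failProb p ℋ := by
  rcases eq_or_lt_of_le (le_trans hpp' hp'1) with h1 | h1
  · have : p' = p := le_antisymm (h1 ▸ hp'1) hpp'
    rw [this]
  · have hpos : 0 < 1 - p := by linarith
    set b : ℝ := (p' - p) / (1 - p) with hb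
    have hb0 : 0 ≤ b := div_nonneg (by linarith) hpos.le
    have hb1 : b ≤ 1 := by
      rw [hb, div_le_one hpos]
      linarith
    have hp' : p' = p + b - p * b := by
      rw [hb]
      field_simp
      ring
    rw [hp', failProb_union]
    unfold failProb
    refine Finset.sum_le_sum ?_
    intro W₁ _
    split_ifs with hW
    · obtain ⟨S, hS, hSW⟩ := hW
      have : ∑ W₂ : Finset α, (if (∃ S ∈ ℋ, S ⊆ W₁ ∪ W₂) then 0 else bern b W₂) = 0 := by
        refine Finset.sum_eq_zero ?_
        intro W₂ _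
        rw [if_pos ⟨S, hS, hSW.trans Finset.subset_union_left⟩]
      rw [this, mul_zero]
    · have hle : ∑ W₂ : Finset α, (if (∃ S ∈ ℋ, S ⊆ W₁ ∪ W₂) then 0 else bern b W₂) ≤ 1 := by
        rw [← sum_bern (α := α) b]
        refine Finset.sum_le_sum ?_
        intro W₂ _
        split_ifs
        · exact bern_nonneg hb0 hb1 W₂
        · exact le_refl _
      have hn := bern_nonneg hp0 h1.le W₁
      nlinarith

end Vale.Agent.Lib.P064.PP
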