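import Vale.Agent.Lib.P064.PP.OneRound

/-!
# P064 / PP: iterating the rounds

Blueprint for `iterate` (induction on `k`, for all `ℋ` and all real `c`).
`k = 0`: all members are empty. If `ℋ = ∅` the empty cover gives `c ≤ 0` and `failProb ≥ 0`;
otherwise `∅ ∈ ℋ` and `failProb = 0`.
`k → k+1`: if `c < 0` the left side is `≤ 0 ≤` right side. Let `c ≥ 0`, `a = L q`,
`p_k = 1 - (1-a)^k`, so `1 - (1-a)^(k+1) = a + p_k - a p_k`. Take `𝒰, ℋ'` from `one_round` with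
`ℓ = 2^(k+1) - 1`, `m = 2^k`. By `failProb_union`,
`failProb p_(k+1) ℋ = ∑_{W₁} bern a W₁ * ∑_{W₂} [W₁ ∪ W₂ contains no member of ℋ] bern p_k W₂
  ≤ ∑_{W₁} bern a W₁ * failProb p_k (ℋ' W₁)`,
because `T ⊆ W₂`, `T ∈ ℋ' W₁` gives `S' ⊆ W₁ ∪ T ⊆ W₁ ∪ W₂`. If `𝒢'` covers `ℋ' W₁` then `𝒢' ∪ 𝒰 W₁` covers
`ℋ`, so `CoverCost (ℋ' W₁) q (c - cost (𝒰 W₁))`; the induction hypothesis and `failProb ≤ 1` give
`c * failProb p_k (ℋ' W₁) ≤ cost (𝒰 W₁) + ∑_{j<k} dlt L j`. Average over `W₁` (`sum_bern`, third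
conclusion of `one_round`).
-/

namespace Vale.Agent.Lib.P064.PP

variable {α : Type*} [Fintype α] [DecidableEq α]

/-- every cover of `ℋ` has cost at least `c` at `q` -/
def CoverCost (ℋ : Finset (Finset α)) (q c : ℝ) : Prop :=
  ∀ 𝒢 : Finset (Finset α), (∀ S ∈ ℋ, ∃ T ∈ 𝒢, T ⊆ S) → c ≤ ∑ T ∈ 𝒢, q ^ T.card

/-- the expected cost of the large fragments in the round that goes from size `< 2^(k+1)` to `< 2^k` -/
noncomputable def dlt (L : ℝ) (k : ℕ) : ℝ :=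
  ∑ t ∈ Finset.Icc (2 ^ k) (2 ^ (k + 1) - 1), ((2 ^ (k + 1) - 1).choose t : ℝ) * (1 / L) ^ t

theorem dlt_nonneg (L : ℝ) (hL : 1 ≤ L) (k : ℕ) : 0 ≤ dlt L k := by
  unfold dlt
  apply Finset.sum_nonneg
  intro t _
  have : 0 ≤ 1 / L := by positivity
  positivity

theorem iterate (q L : ℝ) (hq : 0 ≤ q) (hL : 1 ≤ L) (ha : L * q ≤ 1) (k : ℕ) :
    ∀ (ℋ : Finset (Finset α)) (c : ℝ), (∀ S ∈ ℋ, S.card < 2 ^ k) → CoverCost ℋ q c →
      c * failProb (1 - (1 - L * q) ^ k) ℋ ≤ ∑ j ∈ Finset.range k, dlt L j := by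
  induction k with
  | zero =>
    intro ℋ c hS hc
    simp only [pow_zero, sub_self, Finset.range_zero, Finset.sum_empty]
    rcases ℋ.eq_empty_or_nonempty with rfl | ⟨S, hSm⟩
    · have h0 : c ≤ 0 := by simpa using hc ∅ (by simp)
      exact mul_nonpos_of_nonpos_of_nonneg h0 (failProb_nonneg le_rfl zero_le_one _)
    · have h0 : S = ∅ := by
        have := hS S hSm
        simpa using this
      rw [failProb_eq_zero_of_empty_mem _ _ (h0 ▸ hSm)]
      simp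
  | succ k ih =>
    intro ℋ c hS hc
    have ha0 : 0 ≤ L * q := by positivity
    have h1a0 : 0 ≤ 1 - L * q := by linarith
    have h1a1 : 1 - L * q ≤ 1 := by linarith
    have hpow0 : ∀ j : ℕ, 0 ≤ (1 - L * q) ^ j := fun j => pow_nonneg h1a0 j
    have hpow1 : ∀ j : ℕ, (1 - L * q) ^ j ≤ 1 := fun j => pow_le_one₀ h1a0 h1a1
    have hsum0 : ∀ j : ℕ, 0 ≤ ∑ i ∈ Finset.range j, dlt L i :=
      fun j => Finset.sum_nonneg (fun i _ => dlt_nonneg L hL i)
    rcases lt_or_ge c 0 with hc0 | hc0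
    · have hf : 0 ≤ failProb (1 - (1 - L * q) ^ (k + 1)) ℋ :=
        failProb_nonneg (by linarith [hpow1 (k + 1)]) (by linarith [hpow0 (k + 1)]) _
      have : c * failProb (1 - (1 - L * q) ^ (k + 1)) ℋ ≤ 0 :=
        mul_nonpos_of_nonpos_of_nonneg hc0.le hf
      linarith [hsum0 (k + 1)]
    obtain ⟨𝒰, ℋ', h1, h2, h3⟩ := one_round ℋ (2 ^ (k + 1) - 1) (2 ^ k)
      (fun S hS' => by have := hS S hS'; omega) q L hq hL ha
    have hp0 : 0 ≤ 1 - (1 - L * q) ^ k := by linarith [hpow1 k]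
    have hp1 : 1 - (1 - L * q) ^ k ≤ 1 := by linarith [hpow0 k]
    have hpk : 1 - (1 - L * q) ^ (k + 1)
        = L * q + (1 - (1 - L * q) ^ k) - L * q * (1 - (1 - L * q) ^ k) := by ring
    rw [hpk, failProb_union]
    -- pointwise bound of the inner sum
    have hin : ∀ W₁ : Finset α,
        (∑ W₂ : Finset α, if (∃ S ∈ ℋ, S ⊆ W₁ ∪ W₂) then 0 else bern (1 - (1 - L * q) ^ k) W₂)
          ≤ failProb (1 - (1 - L * q) ^ k) (ℋ' W₁) := by
      intro W₁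
      unfold failProb
      apply Finset.sum_le_sum
      intro W₂ _
      by_cases hT : ∃ T ∈ ℋ' W₁, T ⊆ W₂
      · obtain ⟨T, hTm, hTW⟩ := hT
        obtain ⟨_, S', hS'm, hS'⟩ := h2 W₁ T hTm
        have hex : ∃ S ∈ ℋ, S ⊆ W₁ ∪ W₂ :=
          ⟨S', hS'm, hS'.trans (Finset.union_subset_union_right hTW)⟩
        rw [if_pos hex, if_pos ⟨T, hTm, hTW⟩]
      · rw [if_neg hT]
        split_ifs
        · exact bern_nonneg hp0 hp1 _
        · exact le_rfl
    -- the induction hypothesis for each W₁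
    have hih : ∀ W₁ : Finset α,
        c * failProb (1 - (1 - L * q) ^ k) (ℋ' W₁)
          ≤ ∑ U ∈ 𝒰 W₁, q ^ U.card + ∑ j ∈ Finset.range k, dlt L j := by
      intro W₁
      have hcov : CoverCost (ℋ' W₁) q (c - ∑ U ∈ 𝒰 W₁, q ^ U.card) := by
        intro 𝒢 h𝒢
        have hc' := hc (𝒢 ∪ 𝒰 W₁) (by
          intro S hSm
          rcases h1 W₁ S hSm with ⟨U, hU, hUS⟩ | ⟨T, hT, hTS⟩
          · exact ⟨U, Finset.mem_union_right _ hU, hUS⟩
          · obtain ⟨T', hT', hT'T⟩ := h𝒢 T hT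
            exact ⟨T', Finset.mem_union_left _ hT', hT'T.trans hTS⟩)
        have hle : ∑ T ∈ 𝒢 ∪ 𝒰 W₁, q ^ T.card
            ≤ ∑ T ∈ 𝒢, q ^ T.card + ∑ T ∈ 𝒰 W₁, q ^ T.card := by
          rw [← Finset.sum_union_inter]
          have : 0 ≤ ∑ T ∈ 𝒢 ∩ 𝒰 W₁, q ^ T.card :=
            Finset.sum_nonneg (fun T _ => pow_nonneg hq _)
          linarith
        linarith
      have hI := ih (ℋ' W₁) _ (fun T hT => (h2 W₁ T hT).1) hcov
      have hf0 := failProb_nonneg hp0 hp1 (ℋ' W₁)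
      have hf1 := failProb_le_one hp0 hp1 (ℋ' W₁)
      have hcost : 0 ≤ ∑ U ∈ 𝒰 W₁, q ^ U.card :=
        Finset.sum_nonneg (fun T _ => pow_nonneg hq _)
      nlinarith [mul_le_mul_of_nonneg_left hf1 hcost]
    calc c * ∑ W₁ : Finset α, bern (L * q) W₁ *
          ∑ W₂ : Finset α, (if (∃ S ∈ ℋ, S ⊆ W₁ ∪ W₂) then 0 else bern (1 - (1 - L * q) ^ k) W₂)
        = ∑ W₁ : Finset α, bern (L * q) W₁ * (c *
          ∑ W₂ : Finset α, (if (∃ S ∈ ℋ, S ⊆ W₁ ∪ W₂) then 0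
            else bern (1 - (1 - L * q) ^ k) W₂)) := by
          rw [Finset.mul_sum]
          apply Finset.sum_congr rfl
          intro W₁ _
          ring
      _ ≤ ∑ W₁ : Finset α, bern (L * q) W₁ *
            (∑ U ∈ 𝒰 W₁, q ^ U.card + ∑ j ∈ Finset.range k, dlt L j) := by
          apply Finset.sum_le_sum
          intro W₁ _
          apply mul_le_mul_of_nonneg_left _ (bern_nonneg ha0 ha _)
          exact (mul_le_mul_of_nonneg_left (hin W₁) hc0).trans (hih W₁)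
      _ = ∑ W₁ : Finset α, bern (L * q) W₁ * ∑ U ∈ 𝒰 W₁, q ^ U.card
            + ∑ j ∈ Finset.range k, dlt L j := by
          simp only [mul_add]
          rw [Finset.sum_add_distrib, ← Finset.sum_mul, sum_bern, one_mul]
      _ ≤ ∑ j ∈ Finset.range (k + 1), dlt L j := by
          rw [Finset.sum_range_succ]
          have : ∑ W : Finset α, bern (L * q) W * ∑ U ∈ 𝒰 W, q ^ U.card ≤ dlt L k := h3
          linarith

end Vale.Agent.Lib.P064.PP
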