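import Vale.Agent.Lib.P064.PP.Numeric

/-!
# P064 / PP: the Park-Pham theorem for the binomial random subset

Blueprint: `k = Nat.log 2 ℓ + 1`, so `ℓ < 2^k` (`Nat.lt_pow_succ_log_self`); `a = 16 q ≤ p ≤ 1`;
`1 - (1-a)^k ≤ k a ≤ p` (Bernoulli, `one_add_mul_le_pow`); `failProb_anti`, `iterate` with `c = 1`,
`sum_dlt_le`.
-/

namespace Vale.Agent.Lib.P064.PP

variable {α : Type*} [Fintype α] [DecidableEq α]

theorem park_pham (ℋ : Finset (Finset α)) (ℓ : ℕ) (hℓ : ∀ S ∈ ℋ, S.card ≤ ℓ) (q : ℝ) (hq : 0 ≤ q)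
    (hc : CoverCost ℋ q 1) (p : ℝ) (hp1 : p ≤ 1) (hp : 16 * q * ((Nat.log 2 ℓ : ℝ) + 1) ≤ p) :
    failProb p ℋ ≤ 1 / 2 := by
  set k : ℕ := Nat.log 2 ℓ + 1 with hk
  have hlog : (0 : ℝ) ≤ (Nat.log 2 ℓ : ℝ) := Nat.cast_nonneg _
  have ha : (16 : ℝ) * q ≤ 1 := by nlinarith
  have ha0 : (0 : ℝ) ≤ 16 * q := by positivity
  have hlt : ∀ S ∈ ℋ, S.card < 2 ^ k := fun S hS =>
    lt_of_le_of_lt (hℓ S hS) (Nat.lt_pow_succ_log_self (by norm_num) ℓ)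
  have hit := iterate q 16 hq (by norm_num) ha k ℋ 1 hlt hc
  rw [one_mul] at hit
  have hb : 1 + (k : ℝ) * (-(16 * q)) ≤ (1 + -(16 * q)) ^ k :=
    one_add_mul_le_pow (by linarith) k
  have hkc : (k : ℝ) = (Nat.log 2 ℓ : ℝ) + 1 := by rw [hk]; push_cast; ring
  have h1 : 1 - (1 - 16 * q) ^ k ≤ p := by
    have : (1 + -(16 * q)) = 1 - 16 * q := by ring
    rw [this, hkc] at hb
    nlinarith
  have h0 : 0 ≤ 1 - (1 - 16 * q) ^ k := by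
    have : (1 - 16 * q) ^ k ≤ 1 := pow_le_one₀ (by linarith) (by linarith)
    linarith
  exact (failProb_anti h0 h1 hp1 ℋ).trans (hit.trans (sum_dlt_le k))

end Vale.Agent.Lib.P064.PP
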