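import Mathlib

/-!
# P064 / PP: the product (binomial) measure on the subsets of a finite type

`bern p W = p^|W| (1-p)^(N-|W|)` is the probability that the `p`-random subset of `α` equals `W`.
-/

namespace Vale.Agent.Lib.P064.PP

variable {α : Type*} [Fintype α] [DecidableEq α]

/-- the weight of `W` under the product measure of density `p` -/
noncomputable def bern (p : ℝ) (W : Finset α) : ℝ :=
  p ^ W.card * (1 - p) ^ (Fintype.card α - W.card)

theorem bern_nonneg {p : ℝ} (hp0 : 0 ≤ p) (hp1 : p ≤ 1) (W : Finset α) : 0 ≤ bern p W := by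
  unfold bern
  have h1 : 0 ≤ 1 - p := by linarith
  positivity

/-- total mass one (binomial theorem, `Finset.sum_pow_mul_eq_add_pow`) -/
theorem sum_bern (p : ℝ) : ∑ W : Finset α, bern p W = 1 := by
  unfold bern
  have h := Finset.sum_pow_mul_eq_add_pow p (1 - p) (Finset.univ : Finset α)
  rw [Finset.powerset_univ, Finset.card_univ] at h
  rw [h]
  simp

/-- if `U` is disjoint from `W` then `bern a W * a^|U| = bern a (W ∪ U) * (1-a)^|U|` -/
theorem bern_mul_pow (a : ℝ) (W U : Finset α) (h : Disjoint W U) :
    bern a W * a ^ U.card = bern a (W ∪ U) * (1 - a) ^ U.card := by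
  unfold bern
  have hc : (W ∪ U).card = W.card + U.card := Finset.card_union_of_disjoint h
  have hle : (W ∪ U).card ≤ Fintype.card α := Finset.card_le_univ _
  have h2 : Fintype.card α - W.card = (Fintype.card α - (W ∪ U).card) + U.card := by omega
  rw [h2, hc, pow_add, pow_add]
  ring

/-- the weight as a product over a finite set of coordinates -/
noncomputable def wt (p : ℝ) (s W : Finset α) : ℝ :=
  ∏ x ∈ s, if x ∈ W then p else 1 - p

omit [Fintype α] in
theorem wt_insert_of_notMem (p : ℝ) {s W : Finset α} {x : α} (hs : x ∉ s) (hW : x ∉ W) :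
    wt p (insert x s) W = (1 - p) * wt p s W := by
  unfold wt
  rw [Finset.prod_insert hs, if_neg hW]

omit [Fintype α] in
theorem wt_insert_insert (p : ℝ) {s : Finset α} (W : Finset α) {x : α} (hs : x ∉ s) :
    wt p (insert x s) (insert x W) = p * wt p s W := by
  unfold wt
  rw [Finset.prod_insert hs, if_pos (Finset.mem_insert_self x W)]
  congr 1
  refine Finset.prod_congr rfl ?_
  intro y hy
  have hne : y ≠ x := fun h => hs (h ▸ hy)
  simp [Finset.mem_insert, hne]

theorem bern_eq_wt (p : ℝ) (W : Finset α) : bern p W = wt p Finset.univ W := by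
  unfold bern wt
  rw [Finset.prod_ite, Finset.prod_const, Finset.prod_const]
  have h1 : (Finset.univ.filter fun x => x ∈ W) = W := by
    ext x; simp
  have h2 : (Finset.univ.filter fun x => x ∉ W) = Wᶜ := by
    ext x; simp
  rw [h1, h2, Finset.card_compl]

omit [Fintype α] in
theorem sum_wt_union (a b : ℝ) (s : Finset α) : ∀ f : Finset α → ℝ,
    ∑ W₁ ∈ s.powerset, ∑ W₂ ∈ s.powerset, wt a s W₁ * wt b s W₂ * f (W₁ ∪ W₂) =
      ∑ W ∈ s.powerset, wt (a + b - a * b) s W * f W := by
  induction s using Finset.induction_on with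
  | empty =>
    intro f
    simp [wt]
  | insert x s hx ih =>
    intro f
    have hnm : ∀ W ∈ s.powerset, x ∉ W := fun W hW h => hx (Finset.mem_powerset.mp hW h)
    rw [Finset.sum_powerset_insert hx, Finset.sum_powerset_insert hx]
    have e1 : ∑ W₁ ∈ s.powerset, ∑ W₂ ∈ (insert x s).powerset,
        wt a (insert x s) W₁ * wt b (insert x s) W₂ * f (W₁ ∪ W₂) =
        (1 - a) * (1 - b) * (∑ W₁ ∈ s.powerset, ∑ W₂ ∈ s.powerset,
          wt a s W₁ * wt b s W₂ * f (W₁ ∪ W₂)) +
        (1 - a) * b * (∑ W₁ ∈ s.powerset, ∑ W₂ ∈ s.powerset,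
          wt a s W₁ * wt b s W₂ * f (insert x (W₁ ∪ W₂))) := by
      rw [Finset.mul_sum, Finset.mul_sum, ← Finset.sum_add_distrib]
      refine Finset.sum_congr rfl ?_
      intro W₁ h1
      rw [Finset.sum_powerset_insert hx, Finset.mul_sum, Finset.mul_sum]
      congr 1
      · refine Finset.sum_congr rfl ?_
        intro W₂ h2
        rw [wt_insert_of_notMem a hx (hnm W₁ h1), wt_insert_of_notMem b hx (hnm W₂ h2)]
        ring
      · refine Finset.sum_congr rfl ?_
        intro W₂ h2
        rw [wt_insert_of_notMem a hx (hnm W₁ h1), wt_insert_insert b W₂ hx,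
          Finset.union_insert]
        ring
    have e2 : ∑ W₁ ∈ s.powerset, ∑ W₂ ∈ (insert x s).powerset,
        wt a (insert x s) (insert x W₁) * wt b (insert x s) W₂ * f (insert x W₁ ∪ W₂) =
        a * (1 - b) * (∑ W₁ ∈ s.powerset, ∑ W₂ ∈ s.powerset,
          wt a s W₁ * wt b s W₂ * f (insert x (W₁ ∪ W₂))) +
        a * b * (∑ W₁ ∈ s.powerset, ∑ W₂ ∈ s.powerset,
          wt a s W₁ * wt b s W₂ * f (insert x (W₁ ∪ W₂))) := by
      rw [Finset.mul_sum, Finset.mul_sum, ← Finset.sum_add_distrib]
      refine Finset.sum_congr rfl ?_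
      intro W₁ h1
      rw [Finset.sum_powerset_insert hx, Finset.mul_sum, Finset.mul_sum]
      congr 1
      · refine Finset.sum_congr rfl ?_
        intro W₂ h2
        rw [wt_insert_insert a W₁ hx, wt_insert_of_notMem b hx (hnm W₂ h2),
          Finset.insert_union]
        ring
      · refine Finset.sum_congr rfl ?_
        intro W₂ h2
        rw [wt_insert_insert a W₁ hx, wt_insert_insert b W₂ hx,
          Finset.insert_union, Finset.union_insert, Finset.insert_idem]
        ring
    have e3 : ∑ W ∈ s.powerset, wt (a + b - a * b) (insert x s) W * f W =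
        (1 - (a + b - a * b)) * ∑ W ∈ s.powerset, wt (a + b - a * b) s W * f W := by
      rw [Finset.mul_sum]
      refine Finset.sum_congr rfl ?_
      intro W h
      rw [wt_insert_of_notMem _ hx (hnm W h)]
      ring
    have e4 : ∑ W ∈ s.powerset, wt (a + b - a * b) (insert x s) (insert x W) * f (insert x W) =
        (a + b - a * b) * ∑ W ∈ s.powerset, wt (a + b - a * b) s W * f (insert x W) := by
      rw [Finset.mul_sum]
      refine Finset.sum_congr rfl ?_
      intro W h
      rw [wt_insert_insert _ W hx]
      ring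
    rw [e1, e2, e3, e4, ih f, ih (fun W => f (insert x W))]
    ring

/-- the union of two independent random subsets of densities `a` and `b` is a random subset of
density `a + b - a b`. (For fixed `W`: the pairs `(W₁,W₂)` with union `W` have total weight
`bern (a+b-ab) W`; each element of `W` is in `W₁` only, in `W₂` only or in both, each element outside
`W` is in neither.) It is a polynomial identity, valid for all real `a b`. -/
theorem sum_bern_union (a b : ℝ) (f : Finset α → ℝ) :
    ∑ W₁ : Finset α, ∑ W₂ : Finset α, bern a W₁ * bern b W₂ * f (W₁ ∪ W₂) =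
      ∑ W : Finset α, bern (a + b - a * b) W * f W := by
  have h := sum_wt_union a b (Finset.univ : Finset α) f
  rw [Finset.powerset_univ] at h
  simp only [bern_eq_wt]
  exact h

end Vale.Agent.Lib.P064.PP
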