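import Vale.Agent.Lib.P064.PP.Iterate

/-!
# P064 / PP: the numerical estimate

`dlt 16 j ≤ (1/2) (1/2)^(j+1)`: with `M = 2^j` and `ℓ = 2 M - 1` use `C(ℓ,t) ≤ 2^ℓ`,
`(1/16)^t ≤ (1/16)^M`, the number `M` of terms, `M ≤ 2^M` and `j + 1 ≤ M`. Then a geometric sum.
-/

namespace Vale.Agent.Lib.P064.PP

theorem dlt_le (j : ℕ) : dlt 16 j ≤ (1 / 2) * (1 / 2) ^ (j + 1) := by
  unfold dlt
  set M : ℕ := 2 ^ j with hM
  have hM1 : 1 ≤ M := Nat.one_le_two_pow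
  have hl : 2 ^ (j + 1) - 1 = 2 * M - 1 := by rw [pow_succ, hM, mul_comm]
  rw [hl]
  have hterm : ∀ t ∈ Finset.Icc M (2 * M - 1),
      ((2 * M - 1).choose t : ℝ) * (1 / 16) ^ t ≤ (2 : ℝ) ^ (2 * M - 1) * (1 / 16) ^ M := by
    intro t ht
    have h1 : ((2 * M - 1).choose t : ℝ) ≤ (2 : ℝ) ^ (2 * M - 1) := by
      exact_mod_cast Nat.choose_le_two_pow (2 * M - 1) t
    have h2 : (1 / 16 : ℝ) ^ t ≤ (1 / 16) ^ M :=
      pow_le_pow_of_le_one (by norm_num) (by norm_num) (Finset.mem_Icc.1 ht).1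
    exact mul_le_mul h1 h2 (by positivity) (by positivity)
  have hsum := Finset.sum_le_sum hterm
  rw [Finset.sum_const, Nat.card_Icc] at hsum
  have hcard : 2 * M - 1 + 1 - M = M := by omega
  rw [hcard, nsmul_eq_mul] at hsum
  refine hsum.trans ?_
  have h2pow : (2 : ℝ) ^ (2 * M - 1) * 2 = 4 ^ M := by
    rw [← pow_succ]
    have : 2 * M - 1 + 1 = 2 * M := by omega
    rw [this, pow_mul]
    norm_num
  have h2pow' : (2 : ℝ) ^ (2 * M - 1) = 4 ^ M / 2 := by linarith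
  have hMle : (M : ℝ) ≤ 2 ^ M := by exact_mod_cast (Nat.lt_two_pow_self).le
  have e1 : (4 : ℝ) ^ M * (1 / 16) ^ M = (1 / 4) ^ M := by
    rw [← mul_pow]; norm_num
  have e2 : (2 : ℝ) ^ M * (1 / 4) ^ M = (1 / 2) ^ M := by
    rw [← mul_pow]; norm_num
  have hj : j + 1 ≤ M := Nat.lt_two_pow_self
  have e3 : (1 / 2 : ℝ) ^ M ≤ (1 / 2) ^ (j + 1) :=
    pow_le_pow_of_le_one (by norm_num) (by norm_num) hj
  calc (M : ℝ) * ((2 : ℝ) ^ (2 * M - 1) * (1 / 16) ^ M)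
      = (M : ℝ) * ((1 / 4) ^ M / 2) := by rw [h2pow', ← e1]; ring
    _ ≤ 2 ^ M * ((1 / 4) ^ M / 2) := by gcongr
    _ = (1 / 2) * (1 / 2) ^ M := by rw [← e2]; ring
    _ ≤ (1 / 2) * (1 / 2) ^ (j + 1) := by gcongr

theorem sum_half_pow_le (k : ℕ) : ∑ j ∈ Finset.range k, (1 / 2 : ℝ) ^ (j + 1) ≤ 1 := by
  have : ∀ k : ℕ, ∑ j ∈ Finset.range k, (1 / 2 : ℝ) ^ (j + 1) = 1 - (1 / 2) ^ k := by
    intro k
    induction k with
    | zero => simp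
    | succ k ih => rw [Finset.sum_range_succ, ih]; ring
  rw [this]
  have : (0 : ℝ) ≤ (1 / 2) ^ k := by positivity
  linarith

theorem sum_dlt_le (k : ℕ) : ∑ j ∈ Finset.range k, dlt 16 j ≤ 1 / 2 := by
  calc ∑ j ∈ Finset.range k, dlt 16 j
      ≤ ∑ j ∈ Finset.range k, (1 / 2) * (1 / 2 : ℝ) ^ (j + 1) :=
        Finset.sum_le_sum fun j _ => dlt_le j
    _ = (1 / 2) * ∑ j ∈ Finset.range k, (1 / 2 : ℝ) ^ (j + 1) := by rw [Finset.mul_sum]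
    _ ≤ (1 / 2) * 1 := by gcongr; exact sum_half_pow_le k
    _ = 1 / 2 := by norm_num

end Vale.Agent.Lib.P064.PP
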