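import Vale.Agent.Lib.P064.PP.Fail

/-!
# P064 / PP: one round of the Park-Pham argument (minimum fragments)

Blueprint. For `W` and `S ∈ ℋ` a fragment is a set `S' \ W` with `S' ∈ ℋ`, `S' ⊆ W ∪ S`
(`S' = S` shows there is one); let `T(S,W)` be a fragment of minimum cardinality. Then
`T(S,W) ⊆ S`, `T(S,W)` is disjoint from `W`, `|T(S,W)| ≤ ℓ`, and `W ∪ T(S,W)` contains a member of `ℋ`.
Put `𝒰 W = {T(S,W) : S ∈ ℋ, m ≤ |T(S,W)|}` and `ℋ' W = {T(S,W) : S ∈ ℋ, |T(S,W)| < m}`.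
The first two conclusions are immediate. For the third one: for every `Z` containing a member of `ℋ`
fix such a member `χ Z ⊆ Z`. If `U = T(S,W) ∈ 𝒰 W` and `Z = W ∪ U` then `χ Z \ W ⊆ U ⊆ S` and
`χ Z ⊆ W ∪ S`, so `χ Z \ W` is a fragment for `(S,W)` contained in `U`; by minimality it equals `U`,
so `U ⊆ χ Z`. The map `(W,U) ↦ (W ∪ U, U)` is injective (as `W = (W ∪ U) \ U`), and by `bern_mul_pow`
`bern (L q) W * q^|U| ≤ bern (L q) (W ∪ U) * (1/L)^|U|`. Hence the left side is at most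
`∑_Z bern (L q) Z * ∑_{U ⊆ χ Z, m ≤ |U|} (1/L)^|U| ≤ ∑_Z bern (L q) Z * ∑_{t ∈ [m,ℓ]} C(ℓ,t) (1/L)^t`,
and `∑_Z bern (L q) Z = 1`.

(In the formal proof `𝒰 W` and `ℋ' W` consist of all minimum fragments, not of one chosen minimum
fragment for each `S`; the argument is the same.)
-/

namespace Vale.Agent.Lib.P064.PP

variable {α : Type*} [Fintype α] [DecidableEq α]

/-- `U` is a fragment of minimum cardinality for the pair `(S, W)` -/
def IsMinFrag (ℋ : Finset (Finset α)) (W S U : Finset α) : Prop :=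
  (∃ S' ∈ ℋ, S' ⊆ W ∪ S ∧ U = S' \ W) ∧ ∀ S' ∈ ℋ, S' ⊆ W ∪ S → U.card ≤ (S' \ W).card

theorem exists_isMinFrag (ℋ : Finset (Finset α)) (W S : Finset α) (hS : S ∈ ℋ) :
    ∃ U, IsMinFrag ℋ W S U := by
  classical
  have hne : (ℋ.filter (fun S' => S' ⊆ W ∪ S)).Nonempty :=
    ⟨S, Finset.mem_filter.mpr ⟨hS, Finset.subset_union_right⟩⟩
  obtain ⟨S₀, hS₀, hmin⟩ := Finset.exists_min_image _ (fun S' => (S' \ W).card) hne
  rw [Finset.mem_filter] at hS₀
  refine ⟨S₀ \ W, ⟨S₀, hS₀.1, hS₀.2, rfl⟩, ?_⟩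
  intro S' hS' hsub
  exact hmin S' (Finset.mem_filter.mpr ⟨hS', hsub⟩)

theorem IsMinFrag.subset {ℋ : Finset (Finset α)} {W S U : Finset α} (h : IsMinFrag ℋ W S U) :
    U ⊆ S := by
  obtain ⟨⟨S', _, hsub, rfl⟩, _⟩ := h
  intro x hx
  rw [Finset.mem_sdiff] at hx
  rcases Finset.mem_union.mp (hsub hx.1) with h | h
  · exact absurd h hx.2
  · exact h

theorem IsMinFrag.disjoint {ℋ : Finset (Finset α)} {W S U : Finset α} (h : IsMinFrag ℋ W S U) :
    Disjoint W U := by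
  obtain ⟨⟨S', _, _, rfl⟩, _⟩ := h
  exact Finset.disjoint_sdiff

theorem IsMinFrag.exists_subset {ℋ : Finset (Finset α)} {W S U : Finset α}
    (h : IsMinFrag ℋ W S U) : ∃ S' ∈ ℋ, S' ⊆ W ∪ U := by
  obtain ⟨⟨S', hS', _, rfl⟩, _⟩ := h
  refine ⟨S', hS', ?_⟩
  rw [Finset.union_sdiff_self_eq_union]
  exact Finset.subset_union_right

/-- a member of `ℋ` inside `W ∪ U` contains the minimum fragment `U` -/
theorem IsMinFrag.subset_of_mem {ℋ : Finset (Finset α)} {W S U X : Finset α}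
    (h : IsMinFrag ℋ W S U) (hX : X ∈ ℋ) (hXsub : X ⊆ W ∪ U) : U ⊆ X := by
  have hUS := h.subset
  have h1 : X \ W ⊆ U := by
    intro x hx
    rw [Finset.mem_sdiff] at hx
    rcases Finset.mem_union.mp (hXsub hx.1) with h | h
    · exact absurd h hx.2
    · exact h
  have h2 : X ⊆ W ∪ S := hXsub.trans (Finset.union_subset_union_right hUS)
  have h3 : U.card ≤ (X \ W).card := h.2 X hX h2
  have h4 : X \ W = U := Finset.eq_of_subset_of_card_le h1 h3
  rw [← h4]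
  exact Finset.sdiff_subset

/-- the weighted number of large subsets of a set with at most `ℓ` elements -/
theorem sum_powerset_filter_le (s : Finset α) (ℓ m : ℕ) (hs : s.card ≤ ℓ) (x : ℝ) (hx : 0 ≤ x) :
    ∑ U ∈ s.powerset.filter (fun U => m ≤ U.card), x ^ U.card ≤
      ∑ t ∈ Finset.Icc m ℓ, (ℓ.choose t : ℝ) * x ^ t := by
  classical
  have hmaps : ∀ U ∈ s.powerset.filter (fun U => m ≤ U.card), U.card ∈ Finset.Icc m ℓ := by
    intro U hU
    rw [Finset.mem_filter, Finset.mem_powerset] at hU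
    exact Finset.mem_Icc.mpr ⟨hU.2, (Finset.card_le_card hU.1).trans hs⟩
  rw [← Finset.sum_fiberwise_of_maps_to hmaps]
  apply Finset.sum_le_sum
  intro t _
  have h1 : ∑ U ∈ (s.powerset.filter (fun U => m ≤ U.card)).filter (fun U => U.card = t),
      x ^ U.card = (((s.powerset.filter (fun U => m ≤ U.card)).filter
        (fun U => U.card = t)).card : ℝ) * x ^ t := by
    rw [← nsmul_eq_mul, ← Finset.sum_const]
    apply Finset.sum_congr rfl
    intro U hU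
    rw [(Finset.mem_filter.mp hU).2]
  rw [h1]
  apply mul_le_mul_of_nonneg_right _ (pow_nonneg hx t)
  have h2 : (s.powerset.filter (fun U => m ≤ U.card)).filter (fun U => U.card = t)
      ⊆ s.powersetCard t := by
    intro U hU
    rw [Finset.mem_filter, Finset.mem_filter, Finset.mem_powerset] at hU
    exact Finset.mem_powersetCard.mpr ⟨hU.1.1, hU.2⟩
  have h3 := Finset.card_le_card h2
  rw [Finset.card_powersetCard] at h3
  exact_mod_cast h3.trans (Nat.choose_le_choose t hs)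

theorem one_round (ℋ : Finset (Finset α)) (ℓ m : ℕ) (hℓ : ∀ S ∈ ℋ, S.card ≤ ℓ) (q L : ℝ)
    (hq : 0 ≤ q) (hL : 1 ≤ L) (ha : L * q ≤ 1) :
    ∃ (𝒰 ℋ' : Finset α → Finset (Finset α)),
      (∀ W, ∀ S ∈ ℋ, (∃ U ∈ 𝒰 W, U ⊆ S) ∨ (∃ T ∈ ℋ' W, T ⊆ S)) ∧
      (∀ W, ∀ T ∈ ℋ' W, T.card < m ∧ ∃ S' ∈ ℋ, S' ⊆ W ∪ T) ∧
      ∑ W : Finset α, bern (L * q) W * ∑ U ∈ 𝒰 W, q ^ U.card ≤
        ∑ t ∈ Finset.Icc m ℓ, (ℓ.choose t : ℝ) * (1 / L) ^ t := by
  classical
  have hL0 : 0 < L := lt_of_lt_of_le one_pos hL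
  have ha0 : 0 ≤ L * q := mul_nonneg hL0.le hq
  have hx0 : 0 ≤ 1 / L := by positivity
  let 𝒰 : Finset α → Finset (Finset α) := fun W =>
    Finset.univ.filter (fun U => m ≤ U.card ∧ ∃ S ∈ ℋ, IsMinFrag ℋ W S U)
  let ℋ' : Finset α → Finset (Finset α) := fun W =>
    Finset.univ.filter (fun U => U.card < m ∧ ∃ S ∈ ℋ, IsMinFrag ℋ W S U)
  have h𝒰 : ∀ W U, U ∈ 𝒰 W ↔ m ≤ U.card ∧ ∃ S ∈ ℋ, IsMinFrag ℋ W S U := by
    intro W U; simp [𝒰]
  have hℋ' : ∀ W U, U ∈ ℋ' W ↔ U.card < m ∧ ∃ S ∈ ℋ, IsMinFrag ℋ W S U := by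
    intro W U; simp [ℋ']
  refine ⟨𝒰, ℋ', ?_, ?_, ?_⟩
  · intro W S hS
    obtain ⟨U, hU⟩ := exists_isMinFrag ℋ W S hS
    rcases le_or_gt m U.card with h | h
    · exact Or.inl ⟨U, (h𝒰 W U).mpr ⟨h, S, hS, hU⟩, hU.subset⟩
    · exact Or.inr ⟨U, (hℋ' W U).mpr ⟨h, S, hS, hU⟩, hU.subset⟩
  · intro W T hT
    obtain ⟨h1, S, _, hS⟩ := (hℋ' W T).mp hT
    exact ⟨h1, hS.exists_subset⟩
  · -- a chosen member of `ℋ` inside `Z`
    let χ : Finset α → Finset α := fun Z =>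
      if h : ∃ S ∈ ℋ, S ⊆ Z then h.choose else ∅
    have hχ : ∀ Z, (∃ S ∈ ℋ, S ⊆ Z) → χ Z ∈ ℋ ∧ χ Z ⊆ Z := by
      intro Z h
      simp only [χ, dif_pos h]
      exact h.choose_spec
    have hχcard : ∀ Z, (χ Z).card ≤ ℓ := by
      intro Z
      by_cases h : ∃ S ∈ ℋ, S ⊆ Z
      · exact hℓ _ (hχ Z h).1
      · simp only [χ, dif_neg h]; simp
    let g : (Σ _ : Finset α, Finset α) → ℝ := fun y => bern (L * q) y.1 * (1 / L) ^ y.2.card
    have hg0 : ∀ y, 0 ≤ g y := fun y =>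
      mul_nonneg (bern_nonneg ha0 ha _) (pow_nonneg hx0 _)
    let φ : (Σ _ : Finset α, Finset α) → (Σ _ : Finset α, Finset α) := fun x => ⟨x.1 ∪ x.2, x.2⟩
    let P : Finset (Σ _ : Finset α, Finset α) := Finset.univ.sigma 𝒰
    let Q : Finset (Σ _ : Finset α, Finset α) :=
      Finset.univ.sigma (fun Z => (χ Z).powerset.filter (fun U => m ≤ U.card))
    -- termwise estimate
    have hterm : ∀ W, ∀ U ∈ 𝒰 W, bern (L * q) W * q ^ U.card ≤ g (φ ⟨W, U⟩) := by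
      intro W U hU
      obtain ⟨_, S, _, hS⟩ := (h𝒰 W U).mp hU
      have h1 := bern_mul_pow (L * q) W U hS.disjoint
      have h2 : bern (L * q) (W ∪ U) * (1 - L * q) ^ U.card ≤ bern (L * q) (W ∪ U) := by
        apply mul_le_of_le_one_right (bern_nonneg ha0 ha _)
        exact pow_le_one₀ (by linarith) (by linarith)
      have h3 : bern (L * q) W * q ^ U.card
          = bern (L * q) W * (L * q) ^ U.card * (1 / L) ^ U.card := by
        rw [mul_pow, one_div, inv_pow]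
        have : L ^ U.card ≠ 0 := pow_ne_zero _ hL0.ne'
        field_simp
      show bern (L * q) W * q ^ U.card ≤ bern (L * q) (W ∪ U) * (1 / L) ^ U.card
      rw [h3, h1]
      exact mul_le_mul_of_nonneg_right h2 (pow_nonneg hx0 _)
    have hinj : Set.InjOn φ P := by
      rintro ⟨W, U⟩ hx ⟨W', U'⟩ hx' heq
      have hU : U ∈ 𝒰 W := (Finset.mem_sigma.mp hx).2
      have hU' : U' ∈ 𝒰 W' := (Finset.mem_sigma.mp hx').2
      obtain ⟨_, S, _, hS⟩ := (h𝒰 W U).mp hU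
      obtain ⟨_, S', _, hS'⟩ := (h𝒰 W' U').mp hU'
      simp only [φ, Sigma.mk.injEq, heq_eq_eq] at heq
      obtain ⟨e1, e2⟩ := heq
      subst e2
      have hW : W = W' := by
        have a1 : (W ∪ U) \ U = W := Finset.union_sdiff_cancel_right hS.disjoint
        have a2 : (W' ∪ U) \ U = W' := Finset.union_sdiff_cancel_right hS'.disjoint
        rw [← a1, ← a2, e1]
      rw [hW]
    have hsub : P.image φ ⊆ Q := by
      intro y hy
      obtain ⟨⟨W, U⟩, hx, rfl⟩ := Finset.mem_image.mp hy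
      have hU : U ∈ 𝒰 W := (Finset.mem_sigma.mp hx).2
      obtain ⟨hm, S, _, hS⟩ := (h𝒰 W U).mp hU
      have hc := hχ (W ∪ U) hS.exists_subset
      refine Finset.mem_sigma.mpr ⟨Finset.mem_univ _, ?_⟩
      exact Finset.mem_filter.mpr
        ⟨Finset.mem_powerset.mpr (hS.subset_of_mem hc.1 hc.2), hm⟩
    calc ∑ W : Finset α, bern (L * q) W * ∑ U ∈ 𝒰 W, q ^ U.card
        = ∑ W : Finset α, ∑ U ∈ 𝒰 W, bern (L * q) W * q ^ U.card := by
          simp only [Finset.mul_sum]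
      _ ≤ ∑ W : Finset α, ∑ U ∈ 𝒰 W, g (φ ⟨W, U⟩) :=
          Finset.sum_le_sum fun W _ => Finset.sum_le_sum fun U hU => hterm W U hU
      _ = ∑ x ∈ P, g (φ x) := (Finset.sum_sigma Finset.univ 𝒰 (fun x => g (φ x))).symm
      _ = ∑ y ∈ P.image φ, g y := (Finset.sum_image hinj).symm
      _ ≤ ∑ y ∈ Q, g y := Finset.sum_le_sum_of_subset_of_nonneg hsub fun y _ _ => hg0 y
      _ = ∑ Z : Finset α, ∑ U ∈ (χ Z).powerset.filter (fun U => m ≤ U.card),
            bern (L * q) Z * (1 / L) ^ U.card := Finset.sum_sigma _ _ _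
      _ = ∑ Z : Finset α, bern (L * q) Z *
            ∑ U ∈ (χ Z).powerset.filter (fun U => m ≤ U.card), (1 / L) ^ U.card := by
          simp only [Finset.mul_sum]
      _ ≤ ∑ Z : Finset α, bern (L * q) Z *
            ∑ t ∈ Finset.Icc m ℓ, (ℓ.choose t : ℝ) * (1 / L) ^ t :=
          Finset.sum_le_sum fun Z _ => mul_le_mul_of_nonneg_left
            (sum_powerset_filter_le (χ Z) ℓ m (hχcard Z) (1 / L) hx0) (bern_nonneg ha0 ha _)
      _ = ∑ t ∈ Finset.Icc m ℓ, (ℓ.choose t : ℝ) * (1 / L) ^ t := by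
          rw [← Finset.sum_mul, sum_bern, one_mul]

end Vale.Agent.Lib.P064.PP
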